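/-
helper49: the abstract chord lemma for S0423.

If `S : ℝ → ℝ` is a continuous, positive, strictly decreasing, log-concave "survival function"
(`S ≤ 1`) whose mean `∫ (S - 1_{v<0})` equals `4/3`, then
`(4/9) e^{-1/3} ≤ ∫_{v>0} v e^{-v} S(v) dv`,
provided the same bound holds for the shifted exponential survival functions of mean `4/3`
(hypothesis `hΨ`, a one-parameter calculus fact).
-/
import Mathlib

set_option autoImplicit false
open MeasureTheory Set

namespace Crest.Agent.Helper49

noncomputable section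

/-! ### The weight `w(v) = v e^{-v}` -/

/-- The weight `w(v) = v e^{-v}` on `v > 0`, extended by zero. -/
def wgt (v : ℝ) : ℝ := if 0 < v then v * Real.exp (-v) else 0

lemma wgt_of_pos {v : ℝ} (hv : 0 < v) : wgt v = v * Real.exp (-v) := by simp [wgt, hv]

lemma wgt_of_nonpos {v : ℝ} (hv : v ≤ 0) : wgt v = 0 := by simp [wgt, not_lt.mpr hv]

lemma wgt_nonneg (v : ℝ) : 0 ≤ wgt v := by
  unfold wgt
  split_ifs with h
  · positivity
  · exact le_rfl

lemma wgt_eq_indicator : wgt = (Ioi (0:ℝ)).indicator (fun v => v * Real.exp (-v)) := by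
  funext v
  by_cases hv : 0 < v
  · simp [wgt, hv]
  · simp [wgt, hv]

lemma wgt_le (v : ℝ) : wgt v ≤ Real.exp (-1) := by
  unfold wgt
  split_ifs with h
  · have h1 : v ≤ Real.exp (v - 1) := by
      have := Real.add_one_le_exp (v - 1)
      linarith
    have h2 : Real.exp (-1) = Real.exp (v - 1) * Real.exp (-v) := by
      rw [← Real.exp_add]; congr 1; ring
    rw [h2]
    exact mul_le_mul_of_nonneg_right h1 (Real.exp_pos _).le
  · exact (Real.exp_pos _).le

/-- `w` is nondecreasing on `(0, 1]`. -/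
lemma wgt_mono {u v : ℝ} (hu : 0 < u) (huv : u ≤ v) (hv : v ≤ 1) : wgt u ≤ wgt v := by
  have hv0 : 0 < v := lt_of_lt_of_le hu huv
  rw [wgt_of_pos hu, wgt_of_pos hv0]
  -- u e^{-u} ≤ v e^{-v}  ⟸  u ≤ v e^{u - v}, and e^{u-v} ≥ 1 + u - v
  have h1 : 1 + (u - v) ≤ Real.exp (u - v) := by
    have := Real.add_one_le_exp (u - v); linarith
  have h2 : u ≤ v * Real.exp (u - v) := by
    have h3 : v * (1 + (u - v)) ≤ v * Real.exp (u - v) := mul_le_mul_of_nonneg_left h1 hv0.le
    nlinarith
  have h4 : Real.exp (-v) = Real.exp (u - v) * Real.exp (-u) := by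
    rw [← Real.exp_add]; congr 1; ring
  rw [h4, ← mul_assoc]
  exact mul_le_mul_of_nonneg_right h2 (Real.exp_pos _).le

/-- `w` is nonincreasing on `[1, ∞)`. -/
lemma wgt_anti {u v : ℝ} (hu : 1 ≤ u) (huv : u ≤ v) : wgt v ≤ wgt u := by
  have hu0 : 0 < u := by linarith
  have hv0 : 0 < v := lt_of_lt_of_le hu0 huv
  rw [wgt_of_pos hu0, wgt_of_pos hv0]
  have h1 : 1 + (v - u) ≤ Real.exp (v - u) := by
    have := Real.add_one_le_exp (v - u); linarith
  have h2 : v ≤ u * Real.exp (v - u) := by
    have h3 : u * (1 + (v - u)) ≤ u * Real.exp (v - u) := mul_le_mul_of_nonneg_left h1 hu0.le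
    nlinarith
  have h4 : Real.exp (-u) = Real.exp (v - u) * Real.exp (-v) := by
    rw [← Real.exp_add]; congr 1; ring
  rw [h4, ← mul_assoc]
  exact mul_le_mul_of_nonneg_right h2 (Real.exp_pos _).le

lemma integrableOn_id_mul_exp_neg : IntegrableOn (fun v : ℝ => v * Real.exp (-v)) (Ioi 0) := by
  have h := Real.GammaIntegral_convergent (s := 2) (by norm_num)
  refine h.congr_fun (fun x hx => ?_) measurableSet_Ioi
  have hx' : (0:ℝ) < x := hx
  have : (2:ℝ) - 1 = 1 := by norm_num
  simp only [this, Real.rpow_one]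
  ring

lemma integrable_wgt : Integrable wgt := by
  rw [wgt_eq_indicator]
  exact (integrable_indicator_iff measurableSet_Ioi).mpr integrableOn_id_mul_exp_neg

lemma measurable_wgt : Measurable wgt := by
  rw [wgt_eq_indicator]
  exact (by fun_prop : Measurable (fun v : ℝ => v * Real.exp (-v))).indicator measurableSet_Ioi

/-! ### The parametrisation `p = log r / (r - 1)`, `q = r p` of the level sets of `w` -/

/-- Left end of the level set. -/
def pr (r : ℝ) : ℝ := Real.log r / (r - 1)

/-- Right end of the level set. -/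
def qr (r : ℝ) : ℝ := r * pr r

lemma pr_pos {r : ℝ} (hr : 1 < r) : 0 < pr r :=
  div_pos (Real.log_pos hr) (by linarith)

lemma pr_lt_one {r : ℝ} (hr : 1 < r) : pr r < 1 := by
  unfold pr
  rw [div_lt_one (by linarith)]
  exact Real.log_lt_sub_one_of_pos (by linarith) (ne_of_gt hr)

lemma one_lt_qr {r : ℝ} (hr : 1 < r) : 1 < qr r := by
  unfold qr pr
  have hr0 : 0 < r := by linarith
  have h1 : Real.log r⁻¹ < r⁻¹ - 1 :=
    Real.log_lt_sub_one_of_pos (inv_pos.mpr hr0) (by
      intro h
      have : r = 1 := by simpa using congrArg (·⁻¹) h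
      linarith)
  rw [Real.log_inv] at h1
  have h2 : r - 1 < r * Real.log r := by
    have h3 : r * (1 - r⁻¹) < r * Real.log r := mul_lt_mul_of_pos_left (by linarith) hr0
    have h4 : r * (1 - r⁻¹) = r - 1 := by field_simp
    linarith
  rw [← mul_div_assoc, lt_div_iff₀ (by linarith)]
  linarith

lemma qr_sub_pr {r : ℝ} (hr : 1 < r) : qr r - pr r = Real.log r := by
  unfold qr pr
  have : r - 1 ≠ 0 := by linarith
  field_simp

lemma pr_lt_qr {r : ℝ} (hr : 1 < r) : pr r < qr r := lt_trans (pr_lt_one hr) (one_lt_qr hr)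

lemma wgt_pr_eq_wgt_qr {r : ℝ} (hr : 1 < r) : wgt (pr r) = wgt (qr r) := by
  have hp := pr_pos hr
  have hq : 0 < qr r := lt_trans one_pos (one_lt_qr hr)
  have hr0 : 0 < r := by linarith
  rw [wgt_of_pos hp, wgt_of_pos hq]
  have h1 : -qr r = -pr r + -Real.log r := by
    have := qr_sub_pr hr; linarith
  rw [h1, Real.exp_add, Real.exp_neg (Real.log r), Real.exp_log hr0]
  unfold qr
  field_simp

lemma wgt_ge_of_mem {r v : ℝ} (hr : 1 < r) (h1 : pr r ≤ v) (h2 : v ≤ qr r) :
    wgt (pr r) ≤ wgt v := by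
  rcases le_total v 1 with hv | hv
  · exact wgt_mono (pr_pos hr) h1 hv
  · rw [wgt_pr_eq_wgt_qr hr]
    exact wgt_anti hv h2

lemma wgt_le_of_le_pr {r v : ℝ} (hr : 1 < r) (h1 : v ≤ pr r) : wgt v ≤ wgt (pr r) := by
  rcases le_or_gt v 0 with hv | hv
  · rw [wgt_of_nonpos hv]; exact wgt_nonneg _
  · exact wgt_mono hv h1 (pr_lt_one hr).le

lemma wgt_le_of_qr_le {r v : ℝ} (hr : 1 < r) (h1 : qr r ≤ v) : wgt v ≤ wgt (pr r) := by
  rw [wgt_pr_eq_wgt_qr hr]
  exact wgt_anti (one_lt_qr hr).le h1

/-! ### Chord inequalities for concave functions -/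

/-- On `[p, q]` a concave function lies above its chord. -/
lemma chord_le {φ : ℝ → ℝ} (hφ : ConcaveOn ℝ univ φ) {p q v : ℝ} (hpq : p < q)
    (h1 : p ≤ v) (h2 : v ≤ q) :
    φ p + (φ q - φ p) / (q - p) * (v - p) ≤ φ v := by
  have hd : 0 < q - p := by linarith
  have key := hφ.2 (mem_univ p) (mem_univ q)
    (div_nonneg (by linarith : (0:ℝ) ≤ q - v) hd.le) (div_nonneg (by linarith : (0:ℝ) ≤ v - p) hd.le)
    (by field_simp; ring)
  simp only [smul_eq_mul] at key
  have e1 : (q - v) / (q - p) * p + (v - p) / (q - p) * q = v := by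
    field_simp; ring
  rw [e1] at key
  have e2 : (q - v) / (q - p) * φ p + (v - p) / (q - p) * φ q
      = φ p + (φ q - φ p) / (q - p) * (v - p) := by
    field_simp; ring
  linarith

/-- To the right of `[p, q]` a concave function lies below the chord line. -/
lemma le_chord_right {φ : ℝ → ℝ} (hφ : ConcaveOn ℝ univ φ) {p q v : ℝ} (hpq : p < q)
    (h1 : q ≤ v) :
    φ v ≤ φ p + (φ q - φ p) / (q - p) * (v - p) := by
  have hd : 0 < q - p := by linarith
  have hd' : 0 < v - p := by linarith
  have key := hφ.2 (mem_univ p) (mem_univ v)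
    (div_nonneg (by linarith : (0:ℝ) ≤ v - q) hd'.le) (div_nonneg hd.le hd'.le)
    (by field_simp; ring)
  simp only [smul_eq_mul] at key
  have e1 : (v - q) / (v - p) * p + (q - p) / (v - p) * v = q := by
    field_simp; ring
  rw [e1] at key
  -- key : (v-q)/(v-p) * φ p + (q-p)/(v-p) * φ v ≤ φ q
  have h3 : (v - q) * φ p + (q - p) * φ v ≤ φ q * (v - p) := by
    have := mul_le_mul_of_nonneg_right key hd'.le
    have e : ((v - q) / (v - p) * φ p + (q - p) / (v - p) * φ v) * (v - p)
        = (v - q) * φ p + (q - p) * φ v := by field_simp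
    linarith
  have h4 : (φ q - φ p) / (q - p) * (v - p) = ((φ q - φ p) * (v - p)) / (q - p) := by ring
  rw [h4, ← sub_le_iff_le_add', le_div_iff₀ hd]
  nlinarith

/-- To the left of `[p, q]` a concave function lies below the chord line. -/
lemma le_chord_left {φ : ℝ → ℝ} (hφ : ConcaveOn ℝ univ φ) {p q v : ℝ} (hpq : p < q)
    (h1 : v ≤ p) :
    φ v ≤ φ p + (φ q - φ p) / (q - p) * (v - p) := by
  have hd : 0 < q - p := by linarith
  have hd' : 0 < q - v := by linarith
  have key := hφ.2 (mem_univ v) (mem_univ q)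
    (div_nonneg hd.le hd'.le) (div_nonneg (by linarith : (0:ℝ) ≤ p - v) hd'.le)
    (by field_simp; ring)
  simp only [smul_eq_mul] at key
  have e1 : (q - p) / (q - v) * v + (p - v) / (q - v) * q = p := by
    field_simp; ring
  rw [e1] at key
  have h3 : (q - p) * φ v + (p - v) * φ q ≤ φ p * (q - v) := by
    have := mul_le_mul_of_nonneg_right key hd'.le
    have e : ((q - p) / (q - v) * φ v + (p - v) / (q - v) * φ q) * (q - v)
        = (q - p) * φ v + (p - v) * φ q := by field_simp
    linarith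
  have h4 : (φ q - φ p) / (q - p) * (v - p) = ((φ q - φ p) * (v - p)) / (q - p) := by ring
  rw [h4, ← sub_le_iff_le_add', le_div_iff₀ hd]
  nlinarith

/-- Chord slopes of a concave function decrease when both endpoints move right. -/
lemma slope_le_slope {φ : ℝ → ℝ} (hφ : ConcaveOn ℝ univ φ) {x y p q : ℝ} (hxy : x < y)
    (hpq : p < q) (hxp : x ≤ p) (hyq : y ≤ q) :
    (φ q - φ p) / (q - p) ≤ (φ y - φ x) / (y - x) := by
  -- slope(p,q) ≤ slope(x,q) ≤ slope(x,y)
  have hxq : x < q := lt_of_lt_of_le hxy hyq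
  have s1 : (φ q - φ p) / (q - p) ≤ (φ q - φ x) / (q - x) := by
    rcases eq_or_lt_of_le hxp with h | h
    · subst h; exact le_rfl
    · -- chord from x to q at p: φ p ≥ φ x + slope(x,q) (p - x)
      have := chord_le hφ hxq h.le hpq.le
      have hd1 : 0 < q - p := by linarith
      have hd2 : 0 < q - x := by linarith
      rw [div_le_div_iff₀ hd1 hd2]
      have e : (φ q - φ x) / (q - x) * (p - x) = ((φ q - φ x) * (p - x)) / (q - x) := by ring
      rw [e] at this
      have h5 : φ x * (q - x) + (φ q - φ x) * (p - x) ≤ φ p * (q - x) := by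
        have h6 := mul_le_mul_of_nonneg_right this hd2.le
        have e2 : (φ x + (φ q - φ x) * (p - x) / (q - x)) * (q - x)
            = φ x * (q - x) + (φ q - φ x) * (p - x) := by field_simp
        linarith
      nlinarith
  have s2 : (φ q - φ x) / (q - x) ≤ (φ y - φ x) / (y - x) := by
    rcases eq_or_lt_of_le hyq with h | h
    · subst h; exact le_rfl
    · have := chord_le hφ hxq hxy.le h.le
      have hd1 : 0 < y - x := by linarith
      have hd2 : 0 < q - x := by linarith
      rw [div_le_div_iff₀ hd2 hd1]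
      have e : (φ q - φ x) / (q - x) * (y - x) = ((φ q - φ x) * (y - x)) / (q - x) := by ring
      rw [e] at this
      have h5 : φ x * (q - x) + (φ q - φ x) * (y - x) ≤ φ y * (q - x) := by
        have h6 := mul_le_mul_of_nonneg_right this hd2.le
        have e2 : (φ x + (φ q - φ x) * (y - x) / (q - x)) * (q - x)
            = φ x * (q - x) + (φ q - φ x) * (y - x) := by field_simp
        linarith
      nlinarith
  exact le_trans s1 s2

/-! ### Shifted exponential survival functions -/

/-- The survival function of `m + s X`, `X` a standard exponential variable. -/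
def expSurv (m s v : ℝ) : ℝ := min 1 (Real.exp (-(v - m) / s))

lemma expSurv_pos (m s v : ℝ) : 0 < expSurv m s v := lt_min one_pos (Real.exp_pos _)

lemma expSurv_le_one (m s v : ℝ) : expSurv m s v ≤ 1 := min_le_left _ _

lemma expSurv_le_exp (m s v : ℝ) : expSurv m s v ≤ Real.exp (-(v - m) / s) := min_le_right _ _

lemma expSurv_mono {s : ℝ} (hs : 0 < s) {m₁ m₂ : ℝ} (h : m₁ ≤ m₂) (v : ℝ) :
    expSurv m₁ s v ≤ expSurv m₂ s v := by
  unfold expSurv
  refine min_le_min le_rfl (Real.exp_le_exp.mpr ?_)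
  exact div_le_div_of_nonneg_right (by linarith) hs.le

lemma continuous_expSurv (m s : ℝ) : Continuous (expSurv m s) := by
  unfold expSurv; fun_prop

lemma expSurv_of_le {m s v : ℝ} (hs : 0 < s) (h : v ≤ m) : expSurv m s v = 1 := by
  unfold expSurv
  refine min_eq_left ?_
  rw [← Real.exp_zero]
  exact Real.exp_le_exp.mpr (div_nonneg (by linarith) hs.le)

lemma expSurv_of_ge {m s v : ℝ} (hs : 0 < s) (h : m ≤ v) :
    expSurv m s v = Real.exp (-(v - m) / s) := by
  unfold expSurv
  refine min_eq_right ?_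
  rw [← Real.exp_zero]
  exact Real.exp_le_exp.mpr (div_nonpos_of_nonpos_of_nonneg (by linarith) hs.le)

lemma integrableOn_exp_shift {m s : ℝ} (hs : 0 < s) :
    IntegrableOn (fun v : ℝ => Real.exp (-(v - m) / s)) (Ioi m) := by
  have h : IntegrableOn (fun x : ℝ => Real.exp (m / s) * Real.exp (-(1 / s) * x)) (Ioi m) :=
    (exp_neg_integrableOn_Ioi m (b := 1 / s) (by positivity)).const_mul (Real.exp (m / s))
  refine IntegrableOn.congr_fun h (fun v _ => ?_) measurableSet_Ioi
  rw [← Real.exp_add]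
  congr 1
  field_simp
  ring

lemma integral_exp_shift {m s : ℝ} (hs : 0 < s) :
    ∫ v in Ioi m, Real.exp (-(v - m) / s) = s := by
  have hderiv : ∀ x ∈ Ici m, HasDerivAt (fun v : ℝ => -s * Real.exp (-(v - m) / s))
      (Real.exp (-(x - m) / s)) x := by
    intro x _
    have h1 : HasDerivAt (fun v : ℝ => -(v - m) / s) (-1 / s) x := by
      have := ((hasDerivAt_id x).sub_const m).neg.div_const s
      simpa using this
    have h2 : HasDerivAt (fun v : ℝ => -s * Real.exp (-(v - m) / s))
        (-s * (Real.exp (-(x - m) / s) * (-1 / s))) x := (h1.exp).const_mul (-s)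
    have e : -s * (Real.exp (-(x - m) / s) * (-1 / s)) = Real.exp (-(x - m) / s) := by
      field_simp
    rw [e] at h2
    exact h2
  have htend : Filter.Tendsto (fun v : ℝ => -s * Real.exp (-(v - m) / s)) Filter.atTop (nhds 0) := by
    have h1 : Filter.Tendsto (fun v : ℝ => -(v - m) / s) Filter.atTop Filter.atBot := by
      have : (fun v : ℝ => -(v - m) / s) = fun v => (-1 / s) * v + m / s := by
        funext v; field_simp; ring
      rw [this]
      refine Filter.tendsto_atBot_add_const_right _ _ ?_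
      exact Filter.Tendsto.const_mul_atTop_of_neg (by
        have : 0 < 1 / s := by positivity
        have e : -1 / s = -(1 / s) := by ring
        rw [e]; linarith) Filter.tendsto_id
    have h2 := (Real.tendsto_exp_atBot.comp h1).const_mul (-s)
    simpa using h2
  have := integral_Ioi_of_hasDerivAt_of_tendsto' hderiv (integrableOn_exp_shift hs) htend
  rw [this]
  simp

/-- Decomposition of `expSurv m s - 1_{v<0}`. -/
lemma expSurv_sub_indicator {m s : ℝ} (hs : 0 < s) (v : ℝ) :
    expSurv m s v - (Iio (0:ℝ)).indicator (fun _ => (1:ℝ)) v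
      = (Ioi m).indicator (fun v => Real.exp (-(v - m) / s)) v
        + ((Iic m).indicator (fun _ => (1:ℝ)) v - (Iio (0:ℝ)).indicator (fun _ => (1:ℝ)) v) := by
  rcases le_or_gt v m with h | h
  · rw [expSurv_of_le hs h, indicator_of_notMem (by simp [h] : v ∉ Ioi m),
      indicator_of_mem (by simpa using h : v ∈ Iic m)]
    ring
  · rw [expSurv_of_ge hs h.le, indicator_of_mem (mem_Ioi.mpr h),
      indicator_of_notMem (by simp [h] : v ∉ Iic m)]
    ring

lemma Iic_sub_Iio_of_nonneg {m : ℝ} (h : 0 ≤ m) :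
    (fun v : ℝ => (Iic m).indicator (fun _ => (1:ℝ)) v
        - (Iio (0:ℝ)).indicator (fun _ => (1:ℝ)) v) = (Icc 0 m).indicator (fun _ => (1:ℝ)) := by
  funext v
  by_cases h1 : v ≤ m <;> by_cases h2 : v < 0
  · simp [indicator, h1, h2, not_le.mpr h2]
  · simp [indicator, h1, h2, not_lt.mp h2]
  · exfalso; linarith
  · simp [indicator, h1, h2]

lemma Iic_sub_Iio_of_neg {m : ℝ} (h : m < 0) :
    (fun v : ℝ => (Iic m).indicator (fun _ => (1:ℝ)) v
        - (Iio (0:ℝ)).indicator (fun _ => (1:ℝ)) v)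
        = fun v => -(Ioo m 0).indicator (fun _ => (1:ℝ)) v := by
  funext v
  by_cases h1 : v ≤ m <;> by_cases h2 : v < 0
  · simp [indicator, h1, h2, not_lt.mpr h1]
  · exfalso; linarith
  · simp [indicator, h1, h2, not_le.mp h1]
  · simp [indicator, h1, h2]

lemma integrable_Iic_sub_Iio (m : ℝ) :
    Integrable (fun v : ℝ => (Iic m).indicator (fun _ => (1:ℝ)) v
      - (Iio (0:ℝ)).indicator (fun _ => (1:ℝ)) v) := by
  rcases le_or_gt 0 m with h | h
  · rw [Iic_sub_Iio_of_nonneg h]
    exact (integrable_indicator_iff measurableSet_Icc).mpr (integrableOn_const (by simp))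
  · rw [Iic_sub_Iio_of_neg h]
    exact ((integrable_indicator_iff measurableSet_Ioo).mpr (integrableOn_const (by simp))).neg

lemma integral_Iic_sub_Iio (m : ℝ) :
    ∫ v : ℝ, ((Iic m).indicator (fun _ => (1:ℝ)) v
      - (Iio (0:ℝ)).indicator (fun _ => (1:ℝ)) v) = m := by
  rcases le_or_gt 0 m with h | h
  · rw [Iic_sub_Iio_of_nonneg h, integral_indicator measurableSet_Icc]
    simp [h]
  · rw [Iic_sub_Iio_of_neg h, integral_neg, integral_indicator measurableSet_Ioo]
    simp [h.le]

lemma integrable_expSurv_sub {m s : ℝ} (hs : 0 < s) :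
    Integrable (fun v => expSurv m s v - (Iio (0:ℝ)).indicator (fun _ => (1:ℝ)) v) := by
  have e : (fun v => expSurv m s v - (Iio (0:ℝ)).indicator (fun _ => (1:ℝ)) v)
      = fun v => (Ioi m).indicator (fun v => Real.exp (-(v - m) / s)) v
        + ((Iic m).indicator (fun _ => (1:ℝ)) v - (Iio (0:ℝ)).indicator (fun _ => (1:ℝ)) v) := by
    funext v; exact expSurv_sub_indicator hs v
  rw [e]
  exact ((integrable_indicator_iff measurableSet_Ioi).mpr (integrableOn_exp_shift hs)).add
    (integrable_Iic_sub_Iio m)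

/-- The mean of `m + s X` is `m + s`. -/
lemma integral_expSurv_sub {m s : ℝ} (hs : 0 < s) :
    ∫ v, (expSurv m s v - (Iio (0:ℝ)).indicator (fun _ => (1:ℝ)) v) = m + s := by
  have e : (fun v => expSurv m s v - (Iio (0:ℝ)).indicator (fun _ => (1:ℝ)) v)
      = fun v => (Ioi m).indicator (fun v => Real.exp (-(v - m) / s)) v
        + ((Iic m).indicator (fun _ => (1:ℝ)) v - (Iio (0:ℝ)).indicator (fun _ => (1:ℝ)) v) := by
    funext v; exact expSurv_sub_indicator hs v
  rw [e, integral_add ((integrable_indicator_iff measurableSet_Ioi).mpr (integrableOn_exp_shift hs))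
    (integrable_Iic_sub_Iio m), integral_indicator measurableSet_Ioi, integral_exp_shift hs,
    integral_Iic_sub_Iio]
  ring

/-! ### The comparison integral `Ψ(m, s) = ∫ w · expSurv m s` -/

/-- `Ψ(m, s) = ∫ w(v) min(1, e^{-(v-m)/s}) dv`. -/
def Psi (m s : ℝ) : ℝ := ∫ v, wgt v * expSurv m s v

lemma integrable_wgt_mul {f : ℝ → ℝ} (hf : Measurable f) (h0 : ∀ v, 0 ≤ f v) (h1 : ∀ v, f v ≤ 1) :
    Integrable (fun v => wgt v * f v) := by
  refine integrable_wgt.mul_bdd (c := 1) hf.aestronglyMeasurable (Filter.Eventually.of_forall ?_)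
  intro v
  rw [Real.norm_eq_abs, abs_of_nonneg (h0 v)]
  exact h1 v

lemma integrable_wgt_mul_expSurv (m s : ℝ) : Integrable (fun v => wgt v * expSurv m s v) :=
  integrable_wgt_mul (continuous_expSurv m s).measurable (fun v => (expSurv_pos m s v).le)
    (expSurv_le_one m s)

lemma Psi_mono {s : ℝ} (hs : 0 < s) {m₁ m₂ : ℝ} (h : m₁ ≤ m₂) : Psi m₁ s ≤ Psi m₂ s := by
  unfold Psi
  refine integral_mono (integrable_wgt_mul_expSurv _ _) (integrable_wgt_mul_expSurv _ _) ?_
  intro v
  exact mul_le_mul_of_nonneg_left (expSurv_mono hs h v) (wgt_nonneg v)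

lemma Psi_lipschitz {s : ℝ} (hs : 0 < s) {m₁ m₂ : ℝ} (h : m₁ ≤ m₂) :
    Psi m₂ s - Psi m₁ s ≤ (m₂ - m₁) * Real.exp (-1) := by
  unfold Psi
  rw [← integral_sub (integrable_wgt_mul_expSurv _ _) (integrable_wgt_mul_expSurv _ _)]
  have hint : Integrable (fun v => Real.exp (-1) * ((expSurv m₂ s v
      - (Iio (0:ℝ)).indicator (fun _ => (1:ℝ)) v) - (expSurv m₁ s v
      - (Iio (0:ℝ)).indicator (fun _ => (1:ℝ)) v))) :=
    ((integrable_expSurv_sub hs).sub (integrable_expSurv_sub hs)).const_mul _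
  have hle : ∫ v, (wgt v * expSurv m₂ s v - wgt v * expSurv m₁ s v)
      ≤ ∫ v, Real.exp (-1) * ((expSurv m₂ s v
      - (Iio (0:ℝ)).indicator (fun _ => (1:ℝ)) v) - (expSurv m₁ s v
      - (Iio (0:ℝ)).indicator (fun _ => (1:ℝ)) v)) := by
    refine integral_mono ((integrable_wgt_mul_expSurv _ _).sub (integrable_wgt_mul_expSurv _ _))
      hint ?_
    intro v
    have h1 := expSurv_mono hs h v
    have h2 := wgt_le v
    have h3 := wgt_nonneg v
    simp only
    nlinarith
  refine le_trans hle ?_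
  rw [integral_const_mul, integral_sub (integrable_expSurv_sub hs) (integrable_expSurv_sub hs),
    integral_expSurv_sub hs, integral_expSurv_sub hs]
  have : m₂ + s - (m₁ + s) = m₂ - m₁ := by ring
  rw [this, mul_comm]

/-! ### The basic inequality -/

/-- The basic chord inequality: for a positive log-concave `S ≤ 1` with mean `c`, and a line
`-(v - m)/s` which is a chord of `log S` over `[pr r, qr r]`,
`Ψ(m, s) + w(p) (c - m - s) ≤ ∫ w S`. -/
lemma chord_ineq {S : ℝ → ℝ} (hmeas : Measurable S) (hpos : ∀ v, 0 < S v) (hle : ∀ v, S v ≤ 1)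
    (hconc : ConcaveOn ℝ univ (fun v => Real.log (S v)))
    (hint : Integrable (fun v => S v - (Iio (0:ℝ)).indicator (fun _ => (1:ℝ)) v))
    {c : ℝ} (hmean : ∫ v, (S v - (Iio (0:ℝ)).indicator (fun _ => (1:ℝ)) v) = c)
    {r : ℝ} (hr : 1 < r) (hstrict : Real.log (S (qr r)) < Real.log (S (pr r))) :
    Psi (pr r + Real.log r / (Real.log (S (pr r)) - Real.log (S (qr r))) * Real.log (S (pr r)))
        (Real.log r / (Real.log (S (pr r)) - Real.log (S (qr r))))
      + wgt (pr r) * (c - (pr r + Real.log r / (Real.log (S (pr r)) - Real.log (S (qr r)))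
          * Real.log (S (pr r))) - Real.log r / (Real.log (S (pr r)) - Real.log (S (qr r))))
      ≤ ∫ v, wgt v * S v := by
  set p := pr r with hp
  set q := qr r with hq
  set φ : ℝ → ℝ := fun v => Real.log (S v) with hφ
  have hφp : Real.log (S p) = φ p := rfl
  have hφq : Real.log (S q) = φ q := rfl
  rw [hφp, hφq] at hstrict ⊢
  set s := Real.log r / (φ p - φ q) with hs
  set m := p + s * φ p with hm
  have hlogr : 0 < Real.log r := Real.log_pos hr
  have hs0 : 0 < s := div_pos hlogr (by linarith)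
  have hpq : p < q := pr_lt_qr hr
  have hqp : q - p = Real.log r := qr_sub_pr hr
  -- the chord line
  have hline : ∀ v, -(v - m) / s = φ p + (φ q - φ p) / (q - p) * (v - p) := by
    intro v
    have h1 : φ p - φ q ≠ 0 := by linarith
    have h2 : Real.log r ≠ 0 := hlogr.ne'
    rw [hm, hs, hqp]
    field_simp
    ring
  have hSexp : ∀ v, S v = Real.exp (φ v) := fun v => (Real.exp_log (hpos v)).symm
  -- pointwise sign
  have hpt : ∀ v, 0 ≤ (wgt v - wgt p) * (S v - expSurv m s v) := by
    intro v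
    rcases le_or_gt p v with h1 | h1
    · rcases le_or_gt v q with h2 | h2
      · -- inside
        have hw : wgt p ≤ wgt v := wgt_ge_of_mem hr h1 h2
        have hc := chord_le hconc hpq h1 h2
        have : expSurv m s v ≤ S v := by
          refine le_trans (expSurv_le_exp m s v) ?_
          rw [hSexp v, hline v]
          exact Real.exp_le_exp.mpr hc
        exact mul_nonneg (by linarith) (by linarith)
      · have hw : wgt v ≤ wgt p := wgt_le_of_qr_le hr h2.le
        have hc := le_chord_right hconc hpq h2.le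
        have : S v ≤ expSurv m s v := by
          refine le_min (hle v) ?_
          rw [hSexp v, hline v]
          exact Real.exp_le_exp.mpr hc
        exact mul_nonneg_of_nonpos_of_nonpos (by linarith) (by linarith)
    · have hw : wgt v ≤ wgt p := wgt_le_of_le_pr hr h1.le
      have hc := le_chord_left hconc hpq h1.le
      have : S v ≤ expSurv m s v := by
        refine le_min (hle v) ?_
        rw [hSexp v, hline v]
        exact Real.exp_le_exp.mpr hc
      exact mul_nonneg_of_nonpos_of_nonpos (by linarith) (by linarith)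
  have h0 : 0 ≤ ∫ v, (wgt v - wgt p) * (S v - expSurv m s v) := integral_nonneg hpt
  have i1 : Integrable (fun v => wgt v * S v) :=
    integrable_wgt_mul hmeas (fun v => (hpos v).le) hle
  have i2 := integrable_wgt_mul_expSurv m s
  have i3 := hint
  have i4 := integrable_expSurv_sub (m := m) hs0
  have e : (fun v => (wgt v - wgt p) * (S v - expSurv m s v))
      = fun v => (wgt v * S v - wgt v * expSurv m s v)
          - wgt p * ((S v - (Iio (0:ℝ)).indicator (fun _ => (1:ℝ)) v)
            - (expSurv m s v - (Iio (0:ℝ)).indicator (fun _ => (1:ℝ)) v)) := by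
    funext v; ring
  have i12 : Integrable (fun v => wgt v * S v - wgt v * expSurv m s v) := i1.sub i2
  have i34 : Integrable (fun v => wgt p * ((S v - (Iio (0:ℝ)).indicator (fun _ => (1:ℝ)) v)
            - (expSurv m s v - (Iio (0:ℝ)).indicator (fun _ => (1:ℝ)) v))) :=
    (i3.sub i4).const_mul _
  rw [e, integral_sub i12 i34, integral_sub i1 i2,
    integral_const_mul, integral_sub i3 i4, hmean, integral_expSurv_sub hs0] at h0
  unfold Psi
  linarith

/-! ### Continuity and limits of the parametrisation -/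

lemma continuousOn_pr : ContinuousOn pr (Ioi 1) := by
  unfold pr
  refine ContinuousOn.div ?_ (by fun_prop) ?_
  · exact Real.continuousOn_log.mono (fun r hr => by
      have : (1:ℝ) < r := hr
      simp only [mem_compl_iff, mem_singleton_iff]
      linarith)
  · intro r hr
    have : (1:ℝ) < r := hr
    linarith

lemma continuousOn_qr : ContinuousOn qr (Ioi 1) := by
  unfold qr
  exact continuousOn_id.mul continuousOn_pr

/-- `w(p(r))` is small for large `r`. -/
lemma exists_wgt_pr_lt {δ : ℝ} (hδ : 0 < δ) : ∃ r : ℝ, 1 < r ∧ wgt (pr r) < δ := by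
  set k : ℝ := 2 / δ with hk
  have hk0 : 0 < k := by positivity
  refine ⟨Real.exp k, by simpa using hk0, ?_⟩
  have hr : 1 < Real.exp k := by simpa using hk0
  have hp := pr_pos hr
  have h1 : wgt (pr (Real.exp k)) ≤ pr (Real.exp k) := by
    rw [wgt_of_pos hp]
    have : Real.exp (-pr (Real.exp k)) ≤ 1 := by
      rw [← Real.exp_zero]; exact Real.exp_le_exp.mpr (by linarith)
    nlinarith
  have h2 : pr (Real.exp k) < δ := by
    unfold pr
    rw [Real.log_exp]
    have h3 := Real.quadratic_le_exp_of_nonneg hk0.le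
    have h4 : 0 < Real.exp k - 1 := by linarith
    rw [div_lt_iff₀ h4]
    have h5 : k = 2 / δ := hk
    have h6 : δ * k = 2 := by rw [h5]; field_simp
    nlinarith
  linarith

/-- `w(p(r))` is close to `e^{-1}` for `r` close to `1`. -/
lemma exists_wgt_pr_gt {δ : ℝ} (hδ : 0 < δ) : ∃ r : ℝ, 1 < r ∧ Real.exp (-1) - wgt (pr r) < δ := by
  refine ⟨1 + δ, by linarith, ?_⟩
  have hr : (1:ℝ) < 1 + δ := by linarith
  have hr0 : (0:ℝ) < 1 + δ := by linarith
  have hp1 := pr_lt_one hr
  -- p ≥ 1/r
  have hp2 : (1 + δ)⁻¹ ≤ pr (1 + δ) := by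
    unfold pr
    have h1 := Real.one_sub_inv_le_log_of_pos hr0
    rw [le_div_iff₀ (by linarith)]
    have h2 : (1 + δ)⁻¹ * (1 + δ - 1) = 1 - (1 + δ)⁻¹ := by field_simp
    linarith
  have hinv0 : 0 < (1 + δ)⁻¹ := inv_pos.mpr hr0
  have hinv1 : (1 + δ)⁻¹ ≤ 1 := inv_le_one_of_one_le₀ hr.le
  have h3 : wgt ((1 + δ)⁻¹) ≤ wgt (pr (1 + δ)) := wgt_mono hinv0 hp2 hp1.le
  have h4 : (1 + δ)⁻¹ * Real.exp (-1) ≤ wgt ((1 + δ)⁻¹) := by
    rw [wgt_of_pos hinv0]
    exact mul_le_mul_of_nonneg_left (Real.exp_le_exp.mpr (by linarith)) hinv0.le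
  have h5 : Real.exp (-1) ≤ 1 := by
    rw [← Real.exp_zero]; exact Real.exp_le_exp.mpr (by norm_num)
  have h6 : 0 < Real.exp (-1) := Real.exp_pos _
  have h7 : Real.exp (-1) - (1 + δ)⁻¹ * Real.exp (-1) < δ := by
    have h8 : Real.exp (-1) - (1 + δ)⁻¹ * Real.exp (-1) = Real.exp (-1) * (δ * (1 + δ)⁻¹) := by
      field_simp; ring
    rw [h8]
    have h9 : δ * (1 + δ)⁻¹ < δ := by
      have : (1 + δ)⁻¹ < 1 := inv_lt_one_of_one_lt₀ hr
      nlinarith
    have h10 : 0 < δ * (1 + δ)⁻¹ := by positivity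
    nlinarith
  linarith

/-! ### The chord lemma -/

/-- **Chord lemma.** Let `S` be continuous, positive, `≤ 1`, strictly decreasing and log-concave,
with `S - 1_{v<0}` integrable of integral `c` ("mean `c`"). If every shifted exponential survival
function of mean `c` satisfies `qs ≤ ∫ w · expSurv (c - s) s`, then `qs ≤ ∫ w S`. -/
theorem chord_lemma {S : ℝ → ℝ} (hcont : Continuous S) (hpos : ∀ v, 0 < S v) (hle : ∀ v, S v ≤ 1)
    (hanti : StrictAnti S)
    (hconc : ConcaveOn ℝ univ (fun v => Real.log (S v)))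
    (hint : Integrable (fun v => S v - (Iio (0:ℝ)).indicator (fun _ => (1:ℝ)) v))
    {c qs : ℝ} (hmean : ∫ v, (S v - (Iio (0:ℝ)).indicator (fun _ => (1:ℝ)) v) = c)
    (hΨ : ∀ s : ℝ, 0 < s → qs ≤ Psi (c - s) s) :
    qs ≤ ∫ v, wgt v * S v := by
  set φ : ℝ → ℝ := fun v => Real.log (S v) with hφ
  have hφcont : Continuous φ := hcont.log (fun v => (hpos v).ne')
  have hφanti : StrictAnti φ := fun x y hxy => Real.log_lt_log (hpos y) (hanti hxy)
  have hφle : ∀ v, φ v ≤ 0 := fun v => Real.log_nonpos (hpos v).le (hle v)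
  set I := ∫ v, wgt v * S v with hI
  set sf : ℝ → ℝ := fun r => Real.log r / (φ (pr r) - φ (qr r)) with hsf
  set mf : ℝ → ℝ := fun r => pr r + sf r * φ (pr r) with hmf
  set κ : ℝ → ℝ := fun r => mf r + sf r - c with hκ
  have hden : ∀ r, 1 < r → 0 < φ (pr r) - φ (qr r) := fun r hr => by
    have := hφanti (pr_lt_qr hr); linarith
  have hsf0 : ∀ r, 1 < r → 0 < sf r := fun r hr => div_pos (Real.log_pos hr) (hden r hr)
  -- the basic inequality
  have hbasic : ∀ r, 1 < r → Psi (mf r) (sf r) + wgt (pr r) * (c - mf r - sf r) ≤ I := by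
    intro r hr
    exact chord_ineq hcont.measurable hpos hle hconc hint hmean hr (hφanti (pr_lt_qr hr))
  -- uniform bounds
  set δ0 : ℝ := φ 0 - φ (1/2) with hδ0
  have hδ0pos : 0 < δ0 := by
    have := hφanti (show (0:ℝ) < 1/2 by norm_num); linarith
  set smax : ℝ := 1 / (2 * δ0) with hsmax
  have hsmax0 : 0 < smax := by positivity
  have hsf_le : ∀ r, 1 < r → sf r ≤ smax := by
    intro r hr
    have hpq := pr_lt_qr hr
    have h1 := slope_le_slope hconc (x := 0) (y := 1/2) (p := pr r) (q := qr r) (by norm_num) hpq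
      (pr_pos hr).le (by have := one_lt_qr hr; linarith)
    have hqp : qr r - pr r = Real.log r := qr_sub_pr hr
    have hlog := Real.log_pos hr
    -- h1 : (φ q - φ p)/(q - p) ≤ (φ (1/2) - φ 0)/(1/2 - 0)
    have h2 : (φ (1/2) - φ 0) / (1/2 - 0) = -(2 * δ0) := by rw [hδ0]; ring
    rw [h2, hqp, div_le_iff₀ hlog] at h1
    -- φ q - φ p ≤ -(2 δ0) log r
    have h3 : 2 * δ0 * Real.log r ≤ φ (pr r) - φ (qr r) := by linarith
    show Real.log r / (φ (pr r) - φ (qr r)) ≤ 1 / (2 * δ0)
    rw [div_le_div_iff₀ (hden r hr) (by positivity)]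
    linarith
  set C : ℝ := smax - smax * φ 1 + |c| + 1 with hC
  have hφ1 : φ 1 ≤ 0 := hφle 1
  have hC0 : 0 < C := by
    have : 0 ≤ -(smax * φ 1) := by nlinarith
    have := abs_nonneg c
    linarith
  have hκ_le : ∀ r, 1 < r → κ r ≤ C := by
    intro r hr
    have h1 := hsf_le r hr
    have h2 := hsf0 r hr
    have h3 : sf r * φ (pr r) ≤ 0 := mul_nonpos_of_nonneg_of_nonpos h2.le (hφle _)
    have h4 := pr_lt_one hr
    have h5 := neg_abs_le c
    have : 0 ≤ -(smax * φ 1) := by nlinarith
    show pr r + sf r * φ (pr r) + sf r - c ≤ C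
    linarith
  have hκ_ge : ∀ r, 1 < r → -C ≤ κ r := by
    intro r hr
    have h1 := hsf_le r hr
    have h2 := hsf0 r hr
    have h4 := pr_pos hr
    have h5 := le_abs_self c
    have h6 : φ 1 ≤ φ (pr r) := (hφanti (pr_lt_one hr)).le
    have h7 : smax * φ 1 ≤ sf r * φ (pr r) := by nlinarith [hφle (pr r)]
    show -C ≤ pr r + sf r * φ (pr r) + sf r - c
    linarith
  -- continuity of κ
  have hκcont : ContinuousOn κ (Ioi 1) := by
    have hφp : ContinuousOn (fun r => φ (pr r)) (Ioi 1) :=
      hφcont.comp_continuousOn continuousOn_pr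
    have hφq : ContinuousOn (fun r => φ (qr r)) (Ioi 1) :=
      hφcont.comp_continuousOn continuousOn_qr
    have hlog : ContinuousOn Real.log (Ioi 1) :=
      Real.continuousOn_log.mono (fun r hr => by
        have : (1:ℝ) < r := hr
        simp only [mem_compl_iff, mem_singleton_iff]
        linarith)
    have hsfc : ContinuousOn sf (Ioi 1) :=
      hlog.div (hφp.sub hφq) (fun r hr => (hden r hr).ne')
    have hmfc : ContinuousOn mf (Ioi 1) := continuousOn_pr.add (hsfc.mul hφp)
    exact (hmfc.add hsfc).sub continuousOn_const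
  -- case bounds
  have hA : ∀ r, 1 < r → 0 ≤ κ r → qs - wgt (pr r) * κ r ≤ I := by
    intro r hr hk
    have h1 : c - sf r ≤ mf r := by
      have : κ r = mf r + sf r - c := rfl
      linarith
    have h2 := Psi_mono (hsf0 r hr) h1
    have h3 := hΨ (sf r) (hsf0 r hr)
    have h4 := hbasic r hr
    have h5 : wgt (pr r) * (c - mf r - sf r) = -(wgt (pr r) * κ r) := by
      show wgt (pr r) * (c - mf r - sf r) = -(wgt (pr r) * (mf r + sf r - c)); ring
    linarith
  have hB : ∀ r, 1 < r → κ r ≤ 0 → qs - (Real.exp (-1) - wgt (pr r)) * (-κ r) ≤ I := by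
    intro r hr hk
    have h1 : mf r ≤ c - sf r := by
      have : κ r = mf r + sf r - c := rfl
      linarith
    have h2 := Psi_lipschitz (hsf0 r hr) h1
    have h3 := hΨ (sf r) (hsf0 r hr)
    have h4 := hbasic r hr
    have h5 : wgt (pr r) * (c - mf r - sf r) = wgt (pr r) * (-κ r) := by
      show wgt (pr r) * (c - mf r - sf r) = wgt (pr r) * (-(mf r + sf r - c)); ring
    have h6 : c - sf r - mf r = -κ r := by
      show c - sf r - mf r = -(mf r + sf r - c); ring
    rw [h6] at h2
    rw [h5] at h4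
    nlinarith
  -- conclusion by contradiction
  by_contra hcon
  rw [not_le] at hcon
  set ε : ℝ := qs - I with hε
  have hε0 : 0 < ε := by linarith
  obtain ⟨r₁, hr₁, hw₁⟩ := exists_wgt_pr_lt (div_pos hε0 hC0)
  obtain ⟨r₂, hr₂, hw₂⟩ := exists_wgt_pr_gt (div_pos hε0 hC0)
  -- κ r₁ < 0
  have hk1 : κ r₁ < 0 := by
    by_contra h
    rw [not_lt] at h
    have h1 := hA r₁ hr₁ h
    have h2 : wgt (pr r₁) * κ r₁ < ε := by
      have h3 : wgt (pr r₁) * κ r₁ ≤ wgt (pr r₁) * C :=
        mul_le_mul_of_nonneg_left (hκ_le r₁ hr₁) (wgt_nonneg _)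
      have h4 : wgt (pr r₁) * C < ε / C * C := mul_lt_mul_of_pos_right hw₁ hC0
      have h5 : ε / C * C = ε := by field_simp
      linarith
    linarith
  -- κ r₂ > 0
  have hk2 : 0 < κ r₂ := by
    by_contra h
    rw [not_lt] at h
    have h1 := hB r₂ hr₂ h
    have h2 : (Real.exp (-1) - wgt (pr r₂)) * (-κ r₂) < ε := by
      have h0 : 0 ≤ Real.exp (-1) - wgt (pr r₂) := by have := wgt_le (pr r₂); linarith
      have h3 : (Real.exp (-1) - wgt (pr r₂)) * (-κ r₂) ≤ (Real.exp (-1) - wgt (pr r₂)) * C :=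
        mul_le_mul_of_nonneg_left (by have := hκ_ge r₂ hr₂; linarith) h0
      have h4 : (Real.exp (-1) - wgt (pr r₂)) * C < ε / C * C := mul_lt_mul_of_pos_right hw₂ hC0
      have h5 : ε / C * C = ε := by field_simp
      linarith
    linarith
  -- intermediate value
  have hsub : uIcc r₁ r₂ ⊆ Ioi 1 := by
    intro x hx
    rcases mem_uIcc.mp hx with h | h
    · exact lt_of_lt_of_le hr₁ h.1
    · exact lt_of_lt_of_le hr₂ h.1
  have hivt := intermediate_value_uIcc (hκcont.mono hsub)
  have h0mem : (0:ℝ) ∈ uIcc (κ r₁) (κ r₂) := mem_uIcc.mpr (Or.inl ⟨hk1.le, hk2.le⟩)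
  obtain ⟨r₀, hr₀mem, hr₀⟩ := hivt h0mem
  have hr₀1 : 1 < r₀ := hsub hr₀mem
  have := hA r₀ hr₀1 (le_of_eq hr₀.symm)
  rw [hr₀] at this
  linarith

end

end Crest.Agent.Helper49
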