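/-
helper49: core inequality of S0423 in the CDF form of the team interface (chord track),
obtained from `chord_lemma` (Helper49.S0423Chord) and the calculus fact `Psi_ge_qstar`
(Helper25.S0423Calc).
-/
import Mathlib
import Crest.Agent.Helper49.S0423Chord
import Crest.Agent.Helper25.S0423Calc

set_option autoImplicit false
open MeasureTheory Set

namespace Crest.Agent.Helper49

/-- The two definitions of `Ψ` agree. -/
lemma Psi_eq_helper25 (m s : ℝ) : Psi m s = Crest.Agent.Helper25.Psi m s := by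
  unfold Psi Crest.Agent.Helper25.Psi
  rw [← integral_indicator measurableSet_Ioi]
  congr 1
  funext v
  by_cases hv : 0 < v
  · simp [wgt, expSurv, hv]
  · simp [wgt, hv]

lemma Iio_sub_Iio_of_nonneg {c : ℝ} (h : 0 ≤ c) :
    (fun v : ℝ => (Iio c).indicator (fun _ => (1:ℝ)) v
        - (Iio (0:ℝ)).indicator (fun _ => (1:ℝ)) v) = (Ico 0 c).indicator (fun _ => (1:ℝ)) := by
  funext v
  by_cases h1 : v < c <;> by_cases h2 : v < 0
  · simp [indicator, h1, h2, not_le.mpr h2]
  · simp [indicator, h1, h2, not_lt.mp h2]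
  · exfalso; linarith
  · simp [indicator, h1, h2]

/-- **Core inequality, CDF form (chord track).** -/
theorem core_F_chord (F : ℝ → ℝ) (hcont : Continuous F) (hpos : ∀ x, 0 < F x)
    (h1 : ∀ x, F x ≤ 1) (hstrict : StrictMono F)
    (hconc : ConcaveOn ℝ Set.univ (fun x => Real.log (F x)))
    (hint : Integrable (fun x => F x - Set.indicator (Set.Ioi (0:ℝ)) (1 : ℝ → ℝ) x))
    (hmean : ∫ x, (F x - Set.indicator (Set.Ioi (0:ℝ)) (1 : ℝ → ℝ) x) = 0) :
    4 / 9 * Real.exp (-(1 / 3)) ≤ ∫ r in Set.Ioi (0:ℝ), r * Real.exp (-r) * F (4 / 3 - r) := by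
  set c : ℝ := 4 / 3 with hc
  set S : ℝ → ℝ := fun v => F (c - v) with hS
  have hScont : Continuous S := hcont.comp (by fun_prop)
  have hSanti : StrictAnti S := fun x y hxy => hstrict (by linarith)
  have hSconc : ConcaveOn ℝ univ (fun v => Real.log (S v)) := by
    refine ⟨convex_univ, ?_⟩
    intro x _ y _ a b ha hb hab
    have key := hconc.2 (mem_univ (c - x)) (mem_univ (c - y)) ha hb hab
    have e : a • (c - x) + b • (c - y) = c - (a • x + b • y) := by
      simp only [smul_eq_mul]
      have : b = 1 - a := by linarith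
      rw [this]; ring
    rw [e] at key
    exact key
  -- decomposition of S - 1_{v<0}
  have hdecomp : (fun v => S v - (Iio (0:ℝ)).indicator (fun _ => (1:ℝ)) v)
      = fun v => (fun x => F x - Set.indicator (Set.Ioi (0:ℝ)) (1 : ℝ → ℝ) x) (c - v)
          + ((Iio c).indicator (fun _ => (1:ℝ)) v - (Iio (0:ℝ)).indicator (fun _ => (1:ℝ)) v) := by
    funext v
    by_cases h : v < c
    · have h' : c - v ∈ Ioi (0:ℝ) := by simp only [mem_Ioi]; linarith
      simp only [hS, indicator_of_mem h', indicator_of_mem (mem_Iio.mpr h), Pi.one_apply]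
      ring
    · have h' : c - v ∉ Ioi (0:ℝ) := by simp only [mem_Ioi]; linarith
      have h'' : v ∉ Iio c := by simpa using h
      simp only [hS, indicator_of_notMem h', indicator_of_notMem h'']
      ring
  have hc0 : (0:ℝ) ≤ c := by rw [hc]; norm_num
  have hi1 : Integrable (fun v => (fun x => F x - Set.indicator (Set.Ioi (0:ℝ)) (1 : ℝ → ℝ) x) (c - v)) :=
    hint.comp_sub_left c
  have hi2 : Integrable (fun v : ℝ => (Iio c).indicator (fun _ => (1:ℝ)) v
      - (Iio (0:ℝ)).indicator (fun _ => (1:ℝ)) v) := by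
    rw [Iio_sub_Iio_of_nonneg hc0]
    exact (integrable_indicator_iff measurableSet_Ico).mpr (integrableOn_const (by simp))
  have hSint : Integrable (fun v => S v - (Iio (0:ℝ)).indicator (fun _ => (1:ℝ)) v) := by
    rw [hdecomp]; exact hi1.add hi2
  have hSmean : ∫ v, (S v - (Iio (0:ℝ)).indicator (fun _ => (1:ℝ)) v) = c := by
    rw [hdecomp, integral_add hi1 hi2,
      integral_sub_left_eq_self (fun x => F x - Set.indicator (Set.Ioi (0:ℝ)) (1 : ℝ → ℝ) x) volume c,
      hmean, Iio_sub_Iio_of_nonneg hc0, integral_indicator measurableSet_Ico]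
    simp [hc0]
  have hΨ : ∀ s : ℝ, 0 < s → 4 / 9 * Real.exp (-(1 / 3)) ≤ Psi (c - s) s := by
    intro s hs
    rw [Psi_eq_helper25]
    exact Crest.Agent.Helper25.Psi_ge_qstar s hs
  have hmain := chord_lemma hScont (fun v => hpos _) (fun v => h1 _) hSanti hSconc hSint hSmean hΨ
  have hfin : ∫ v, wgt v * S v = ∫ r in Set.Ioi (0:ℝ), r * Real.exp (-r) * F (4 / 3 - r) := by
    rw [← integral_indicator measurableSet_Ioi]
    congr 1
    funext v
    by_cases hv : 0 < v
    · simp [wgt, hS, hc, hv]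
    · simp [wgt, hv]
  rw [← hfin]
  exact hmain

/-! ### Midpoint concavity plus continuity gives concavity -/

/-- A continuous midpoint-concave function lies above its chords. -/
lemma chord_le_of_midpoint {φ : ℝ → ℝ} (hc : Continuous φ)
    (hm : ∀ x h : ℝ, 0 ≤ h → φ x + φ (x + 2 * h) ≤ 2 * φ (x + h)) {x y : ℝ} (hxy : x < y)
    {t : ℝ} (ht : t ∈ Icc x y) :
    φ x + (φ y - φ x) / (y - x) * (t - x) ≤ φ t := by
  set g : ℝ → ℝ := fun u => φ u - (φ x + (φ y - φ x) / (y - x) * (u - x)) with hg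
  have hgc : Continuous g := by rw [hg]; fun_prop
  have hgx : g x = 0 := by simp [hg]
  have hgy : g y = 0 := by
    have : y - x ≠ 0 := by linarith
    simp only [hg]; field_simp; ring
  have hgm : ∀ u h : ℝ, 0 ≤ h → g u + g (u + 2 * h) ≤ 2 * g (u + h) := by
    intro u h hh
    have := hm u h hh
    simp only [hg]
    have e : (φ y - φ x) / (y - x) * (u - x) + (φ y - φ x) / (y - x) * (u + 2 * h - x)
        = 2 * ((φ y - φ x) / (y - x) * (u + h - x)) := by ring
    linarith
  suffices h : 0 ≤ g t by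
    have : g t = φ t - (φ x + (φ y - φ x) / (y - x) * (t - x)) := rfl
    linarith
  by_contra hneg
  rw [not_le] at hneg
  obtain ⟨tm, htm, hmin⟩ := isCompact_Icc.exists_isMinOn (nonempty_Icc.mpr hxy.le) hgc.continuousOn
  set μ := g tm with hμ
  have hμneg : μ < 0 := lt_of_le_of_lt (hmin ht) hneg
  have hμle : ∀ u ∈ Icc x y, μ ≤ g u := fun u hu => hmin hu
  set M : Set ℝ := Icc x y ∩ g ⁻¹' {μ} with hM
  have hMc : IsCompact M := isCompact_Icc.inter_right (isClosed_singleton.preimage hgc)
  have hMne : M.Nonempty := ⟨tm, htm, rfl⟩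
  obtain ⟨t₀, ht₀⟩ := hMc.exists_isLeast hMne
  have ht₀M : t₀ ∈ M := ht₀.1
  have ht₀I : t₀ ∈ Icc x y := ht₀M.1
  have hgt₀ : g t₀ = μ := ht₀M.2
  have hx0 : x < t₀ := by
    rcases eq_or_lt_of_le ht₀I.1 with h | h
    · rw [← h, hgx] at hgt₀; linarith
    · exact h
  have h0y : t₀ < y := by
    rcases eq_or_lt_of_le ht₀I.2 with h | h
    · rw [h, hgy] at hgt₀; linarith
    · exact h
  set δ : ℝ := min (t₀ - x) (y - t₀) with hδ
  have hδpos : 0 < δ := lt_min (by linarith) (by linarith)
  have hδ1 : δ ≤ t₀ - x := min_le_left _ _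
  have hδ2 : δ ≤ y - t₀ := min_le_right _ _
  have hmem1 : t₀ - δ ∈ Icc x y := ⟨by linarith, by linarith⟩
  have hmem2 : t₀ + δ ∈ Icc x y := ⟨by linarith, by linarith⟩
  have key := hgm (t₀ - δ) δ hδpos.le
  have e1 : t₀ - δ + 2 * δ = t₀ + δ := by ring
  have e2 : t₀ - δ + δ = t₀ := by ring
  rw [e1, e2, hgt₀] at key
  have h1 : μ < g (t₀ - δ) := by
    rcases eq_or_lt_of_le (hμle _ hmem1) with h | h
    · exfalso
      have : t₀ - δ ∈ M := ⟨hmem1, h.symm⟩
      have := ht₀.2 this
      linarith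
    · exact h
  have h2 := hμle _ hmem2
  linarith

/-- A continuous midpoint-concave function on `ℝ` is concave. -/
theorem concaveOn_of_midpoint {φ : ℝ → ℝ} (hc : Continuous φ)
    (hm : ∀ x h : ℝ, 0 ≤ h → φ x + φ (x + 2 * h) ≤ 2 * φ (x + h)) : ConcaveOn ℝ univ φ := by
  refine ⟨convex_univ, ?_⟩
  intro x _ y _ a b ha hb hab
  simp only [smul_eq_mul]
  have hb' : b = 1 - a := by linarith
  rcases lt_trichotomy x y with hxy | hxy | hxy
  · have ht : a * x + b * y ∈ Icc x y := by
      constructor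
      · rw [hb']; nlinarith
      · rw [hb']; nlinarith
    have := chord_le_of_midpoint hc hm hxy ht
    have e : (φ y - φ x) / (y - x) * (a * x + b * y - x) = b * (φ y - φ x) := by
      have : y - x ≠ 0 := by linarith
      rw [hb']; field_simp; ring
    rw [e] at this
    rw [hb'] at this ⊢
    linarith
  · subst hxy
    have : a * x + b * x = x := by rw [hb']; ring
    rw [this, hb']
    linarith
  · have ht : a * x + b * y ∈ Icc y x := by
      constructor
      · rw [hb']; nlinarith
      · rw [hb']; nlinarith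
    have := chord_le_of_midpoint hc hm hxy ht
    have e : (φ x - φ y) / (x - y) * (a * x + b * y - y) = a * (φ x - φ y) := by
      have : x - y ≠ 0 := by linarith
      rw [hb']; field_simp; ring
    rw [e] at this
    rw [hb'] at this ⊢
    linarith

/-- Log-concavity from the four-point inequality (for continuous positive `F`). -/
theorem concaveOn_log_of_fourpoint {F : ℝ → ℝ} (hcont : Continuous F) (hpos : ∀ x, 0 < F x)
    (h4 : ∀ x y h : ℝ, x ≤ y → 0 ≤ h → F x * F (y + h) ≤ F (x + h) * F y) :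
    ConcaveOn ℝ Set.univ (fun x => Real.log (F x)) := by
  refine concaveOn_of_midpoint (hcont.log (fun x => (hpos x).ne')) ?_
  intro x h hh
  have key := h4 x (x + h) h (by linarith) hh
  have e : x + h + h = x + 2 * h := by ring
  rw [e] at key
  have hl := Real.log_le_log (mul_pos (hpos x) (hpos (x + 2 * h))) key
  rw [Real.log_mul (hpos _).ne' (hpos _).ne', Real.log_mul (hpos _).ne' (hpos _).ne'] at hl
  linarith

/-- **Core inequality, CDF form (chord track), with the four-point inequality** instead of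
log-concavity. -/
theorem core_F_chord4 (F : ℝ → ℝ) (hcont : Continuous F) (hpos : ∀ x, 0 < F x)
    (h1 : ∀ x, F x ≤ 1) (hstrict : StrictMono F)
    (h4 : ∀ x y h : ℝ, x ≤ y → 0 ≤ h → F x * F (y + h) ≤ F (x + h) * F y)
    (hint : Integrable (fun x => F x - Set.indicator (Set.Ioi (0:ℝ)) (1 : ℝ → ℝ) x))
    (hmean : ∫ x, (F x - Set.indicator (Set.Ioi (0:ℝ)) (1 : ℝ → ℝ) x) = 0) :
    4 / 9 * Real.exp (-(1 / 3)) ≤ ∫ r in Set.Ioi (0:ℝ), r * Real.exp (-r) * F (4 / 3 - r) :=
  core_F_chord F hcont hpos h1 hstrict (concaveOn_log_of_fourpoint hcont hpos h4) hint hmean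

end Crest.Agent.Helper49
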