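/-
helper49: strict monotonicity of the CDF-like function `F = Kiter N a H` from the four-point
inequality, and the assembled survival bound of S0423 (chord track).
-/
import Mathlib
import Crest.Agent.Helper49.S0423CoreB
import Crest.Agent.Helper19.Exchange
import Crest.Agent.Helper42.MeanShift
import Crest.Agent.Helper66.KClass

set_option autoImplicit false
open MeasureTheory Set

namespace Crest.Agent.Helper49

/-- A monotone function with values in `(0,1)` satisfying the four-point inequality and with
`F - H` integrable is strictly monotone. -/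
theorem strictMono_of_fourPoint (F : ℝ → ℝ) (hmono : Monotone F) (hpos : ∀ x, 0 < F x)
    (hlt : ∀ x, F x < 1)
    (h4 : ∀ x y h : ℝ, x ≤ y → 0 ≤ h → F x * F (y + h) ≤ F (x + h) * F y)
    (hint : Integrable (fun x => F x - Set.indicator (Set.Ioi (0:ℝ)) (1 : ℝ → ℝ) x)) :
    StrictMono F := by
  intro x y hxy
  by_contra hnot
  rw [not_lt] at hnot
  have heq : F x = F y := le_antisymm (hmono hxy.le) hnot
  have hd : 0 < y - x := sub_pos.mpr hxy
  -- shifting by `h ≥ 0`
  have hshift : ∀ h : ℝ, 0 ≤ h → F (y + h) ≤ F (x + h) := by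
    intro h hh
    have := h4 x y h hxy.le hh
    rw [heq] at this
    have hy := hpos y
    have h2 : F y * F (y + h) ≤ F y * F (x + h) := by linarith [mul_comm (F (x + h)) (F y)]
    exact le_of_mul_le_mul_left h2 hy
  have hk : ∀ k : ℕ, F (x + k * (y - x)) ≤ F x := by
    intro k
    induction k with
    | zero => simp
    | succ k ih =>
      have h := hshift (k * (y - x)) (by positivity)
      have e : x + ((k + 1 : ℕ) : ℝ) * (y - x) = y + k * (y - x) := by
        push_cast
        ring
      rw [e]
      exact h.trans ih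
  have hall : ∀ z : ℝ, F z ≤ F x := by
    intro z
    obtain ⟨k, hk'⟩ := exists_nat_gt ((z - x) / (y - x))
    have hz : z ≤ x + k * (y - x) := by
      rw [div_lt_iff₀ hd] at hk'
      linarith
    exact (hmono hz).trans (hk k)
  -- contradiction with integrability
  have hc : 0 < 1 - F x := by linarith [hlt x]
  have hconst : IntegrableOn (fun _ : ℝ => 1 - F x) (Ioi (0:ℝ)) := by
    refine Integrable.mono' hint.integrableOn.norm (by fun_prop) ?_
    refine (ae_restrict_iff' measurableSet_Ioi).mpr (Filter.Eventually.of_forall ?_)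
    intro z hz
    have hind : Set.indicator (Set.Ioi (0:ℝ)) (1 : ℝ → ℝ) z = 1 := by
      rw [Set.indicator_of_mem hz]
      rfl
    rw [hind, Real.norm_eq_abs, Real.norm_eq_abs, abs_of_pos hc]
    have := hall z
    rw [abs_of_nonpos (by linarith)]
    linarith
  rw [integrableOn_const_iff] at hconst
  rcases hconst with h | h
  · rw [enorm_eq_zero] at h
    linarith
  · simp at h

/-- **Survival bound of S0423** (all cases): for `∑ a i = 0`,
`q* ≤ ∫ r e^{-r} F (4/3 - r) dr` where `F = Kiter N a 1_{(0,∞)}`. -/
theorem survival_bound (N : ℕ) (a : Fin N → ℝ) (hsum : ∑ i, a i = 0) :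
    4 / 9 * Real.exp (-(1 / 3)) ≤ ∫ r in Set.Ioi (0 : ℝ), r * Real.exp (-r) *
      Crest.Agent.Helper19.Kiter N a (Set.indicator (Set.Ioi (0 : ℝ)) (1 : ℝ → ℝ)) (4 / 3 - r) := by
  by_cases hz : ∀ i, a i = 0
  · exact Crest.Agent.Helper19.survival_bound_of_eq_zero N a hz
  · rw [not_forall] at hz
    obtain ⟨i0, hi0⟩ := hz
    have hposex : ∃ i, 0 < a i := by
      by_contra hcon
      rw [not_exists] at hcon
      have hle : ∀ i, a i ≤ 0 := fun i => not_lt.mp (hcon i)
      have h0 : ∀ i ∈ Finset.univ, a i = 0 :=
        (Finset.sum_eq_zero_iff_of_nonpos (fun i _ => hle i)).mp hsum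
      exact hi0 (h0 i0 (Finset.mem_univ _))
    have hnegex : ∃ i, a i < 0 := by
      by_contra hcon
      rw [not_exists] at hcon
      have hge : ∀ i, 0 ≤ a i := fun i => not_lt.mp (hcon i)
      have h0 : ∀ i ∈ Finset.univ, a i = 0 :=
        (Finset.sum_eq_zero_iff_of_nonneg (fun i _ => hge i)).mp hsum
      exact hi0 (h0 i0 (Finset.mem_univ _))
    have hint := Crest.Agent.Helper42.Kiter_sub_H_integrable N a
    have hmean := Crest.Agent.Helper42.integral_Kiter_sub_H N a
    rw [hsum] at hmean
    have hstrict := strictMono_of_fourPoint _ (Crest.Agent.Helper66.B1_monotone N a)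
      (Crest.Agent.Helper66.B3_pos N a hposex) (Crest.Agent.Helper66.B3_lt_one N a hnegex)
      (Crest.Agent.Helper66.B2_fourPoint N a) hint
    exact core_F_chord4 _ (Crest.Agent.Helper66.B3_continuous N a ⟨i0, hi0⟩)
      (Crest.Agent.Helper66.B3_pos N a hposex) (Crest.Agent.Helper66.B1_le_one N a) hstrict
      (Crest.Agent.Helper66.B2_fourPoint N a) hint hmean

end Crest.Agent.Helper49
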